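import Mathlib

namespace Vale.Agent.Results.P084.A_HilbertMazurUlam

open scoped InnerProductSpace

section Core

variable {H Y : Type*} [NormedAddCommGroup H] [InnerProductSpace ℝ H]
  [NormedAddCommGroup Y] [NormedSpace ℝ Y]

theorem eq_of_sq_eq {u v : ℝ} (hu : 0 ≤ u) (hv : 0 ≤ v) (h : u ^ 2 = v ^ 2) : u = v := by
  rw [← Real.sqrt_sq hu, ← Real.sqrt_sq hv, h]

theorem inner_self_of_norm_one {x : H} (h : ‖x‖ = 1) : ⟪x, x⟫_ℝ = 1 := by
  rw [real_inner_self_eq_norm_sq, h]; norm_num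

theorem norm_eq_of_inner {x y : H} (h : ⟪x, x⟫_ℝ = ⟪y, y⟫_ℝ) : ‖x‖ = ‖y‖ := by
  apply eq_of_sq_eq (norm_nonneg _) (norm_nonneg _)
  rw [← real_inner_self_eq_norm_sq, ← real_inner_self_eq_norm_sq, h]

/-- Unit vectors with inner product one are equal. -/
theorem eq_of_inner_one {a c : H} (ha : ‖a‖ = 1) (hc : ‖c‖ = 1) (h : ⟪a, c⟫_ℝ = 1) : a = c := by
  have h0 : ‖a - c‖ ^ 2 = 0 := by
    rw [norm_sub_sq_real, ha, hc, h]; norm_num
  have h1 : ‖a - c‖ = 0 := by simpa using h0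
  exact sub_eq_zero.1 (norm_eq_zero.1 h1)

theorem unit_normalize {E : Type*} [NormedAddCommGroup E] [NormedSpace ℝ E] {x : E}
    (hx : x ≠ 0) : ‖‖x‖⁻¹ • x‖ = 1 := by
  rw [norm_smul, norm_inv, norm_norm]
  exact inv_mul_cancel₀ (norm_ne_zero_iff.2 hx)

/-- A map of `H` into `Y` that restricts to a surjective isometry of the unit spheres. -/
def SphIso (φ : H → Y) : Prop :=
  (∀ a : H, ‖a‖ = 1 → ‖φ a‖ = 1) ∧
  (∀ a b : H, ‖a‖ = 1 → ‖b‖ = 1 → ‖φ a - φ b‖ = ‖a - b‖) ∧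
  (∀ y : Y, ‖y‖ = 1 → ∃ a : H, ‖a‖ = 1 ∧ φ a = y)

theorem phi_neg {φ : H → Y} (hφ : SphIso φ) {a : H} (ha : ‖a‖ = 1) : φ (-a) = -φ a := by
  obtain ⟨h1, hd, hs⟩ := hφ
  obtain ⟨z, hz, hzφ⟩ := hs (-φ a) (by rw [norm_neg]; exact h1 a ha)
  have h2 : ‖a - z‖ = 2 := by
    rw [← hd a z ha hz, hzφ, sub_neg_eq_add, ← two_smul ℝ (φ a), norm_smul, h1 a ha]; norm_num
  have h3 : ⟪a, z⟫_ℝ = -1 := by
    have := norm_sub_sq_real a z
    rw [h2, ha, hz] at this; linarith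
  have h4 : z = -a := by
    have h0 : ‖a + z‖ ^ 2 = 0 := by
      rw [norm_add_sq_real, ha, hz, h3]; norm_num
    have h5 : ‖a + z‖ = 0 := by simpa using h0
    exact eq_neg_of_add_eq_zero_right (norm_eq_zero.1 h5)
  rw [← h4, hzφ]

theorem phi_add_norm {φ : H → Y} (hφ : SphIso φ) {a b : H} (ha : ‖a‖ = 1) (hb : ‖b‖ = 1) :
    ‖φ a + φ b‖ = ‖a + b‖ := by
  have hnb : ‖-b‖ = 1 := by rw [norm_neg]; exact hb
  have h := hφ.2.1 a (-b) ha hnb
  rw [phi_neg hφ hb, sub_neg_eq_add, sub_neg_eq_add] at h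
  exact h

theorem strictConvex_of {φ : H → Y} (hφ : SphIso φ) : StrictConvexSpace ℝ Y := by
  apply StrictConvexSpace.of_norm_add
  intro x y hx hy hxy
  obtain ⟨a, ha, rfl⟩ := hφ.2.2 x hx
  obtain ⟨b, hb, rfl⟩ := hφ.2.2 y hy
  have h2 : ‖a + b‖ = 2 := by rw [← phi_add_norm hφ ha hb]; exact hxy
  have hab : a = b := by
    apply eq_of_inner_one ha hb
    have := norm_add_sq_real a b
    rw [h2, ha, hb] at this; linarith
  subst hab
  exact SameRay.refl _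

theorem ray_split [StrictConvexSpace ℝ Y] {T1 T2 w : Y} (hsum : T1 + T2 = w)
    (hw : ‖w‖ = 1) (hn : ‖T1‖ + ‖T2‖ = 1) : T1 = ‖T1‖ • w := by
  have hsr : SameRay ℝ T1 T2 := sameRay_iff_norm_add.2 (by rw [hsum, hw, hn])
  have h := hsr.norm_smul_eq
  rw [← hsum, smul_add, h, ← add_smul, hn, one_smul]

/-- The rhombus law for two vectors of `Y` of equal norm. -/
theorem rhombus {φ : H → Y} (hφ : SphIso φ) {p q : Y} {d : ℝ} (hp : ‖p‖ = d) (hq : ‖q‖ = d) :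
    ‖p + q‖ ^ 2 + ‖p - q‖ ^ 2 = 4 * d ^ 2 := by
  have hd0 : 0 ≤ d := by rw [← hp]; exact norm_nonneg p
  rcases eq_or_lt_of_le hd0 with h0 | hd
  · subst h0
    have hp0 : p = 0 := norm_eq_zero.1 hp
    have hq0 : q = 0 := norm_eq_zero.1 hq
    rw [hp0, hq0]; simp
  · have hu : ∀ w : Y, ‖w‖ = d → ‖d⁻¹ • w‖ = 1 := by
      intro w hw
      rw [norm_smul, norm_inv, Real.norm_of_nonneg hd.le, hw, inv_mul_cancel₀ hd.ne']
    obtain ⟨a, ha, hap⟩ := hφ.2.2 (d⁻¹ • p) (hu p hp)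
    obtain ⟨b, hb, hbq⟩ := hφ.2.2 (d⁻¹ • q) (hu q hq)
    have ep : p = d • φ a := by rw [hap, smul_smul, mul_inv_cancel₀ hd.ne', one_smul]
    have eq' : q = d • φ b := by rw [hbq, smul_smul, mul_inv_cancel₀ hd.ne', one_smul]
    have h1 := norm_add_sq_real a b
    have h2 := norm_sub_sq_real a b
    rw [ha, hb] at h1 h2
    rw [ep, eq', ← smul_add, ← smul_sub, norm_smul, norm_smul, Real.norm_of_nonneg hd.le,
      phi_add_norm hφ ha hb, hφ.2.1 a b ha hb, mul_pow, mul_pow, h1, h2]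
    ring

/-- Normalised midpoints: `φ a + φ b` is `‖a + b‖` times the value of `φ` at the unit bisector. -/
theorem lemD {φ : H → Y} (hφ : SphIso φ) {a b : H} (ha : ‖a‖ = 1) (hb : ‖b‖ = 1)
    (hab : a + b ≠ 0) : φ a + φ b = ‖a + b‖ • φ (‖a + b‖⁻¹ • (a + b)) := by
  have hsc : StrictConvexSpace ℝ Y := strictConvex_of hφ
  have hm : ‖‖a + b‖⁻¹ • (a + b)‖ = 1 := unit_normalize hab
  have iaa := inner_self_of_norm_one ha
  have ibb := inner_self_of_norm_one hb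
  have hr2 : ‖a + b‖ ^ 2 = 2 + 2 * ⟪a, b⟫_ℝ := by
    rw [norm_add_sq_real, ha, hb]; ring
  have hle : ‖a + b‖ ≤ 2 := by
    have h := norm_add_le a b
    rw [ha, hb] at h; linarith
  have hma : ⟪‖a + b‖⁻¹ • (a + b), a⟫_ℝ = ‖a + b‖ / 2 := by
    rw [real_inner_smul_left, inner_add_left, iaa, real_inner_comm a b]
    have h1 : 1 + ⟪a, b⟫_ℝ = ‖a + b‖ ^ 2 / 2 := by linarith
    rw [h1]; field_simp
  have hmb : ⟪‖a + b‖⁻¹ • (a + b), b⟫_ℝ = ‖a + b‖ / 2 := by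
    rw [real_inner_smul_left, inner_add_left, ibb]
    have h1 : ⟪a, b⟫_ℝ + 1 = ‖a + b‖ ^ 2 / 2 := by linarith
    rw [h1]; field_simp
  have da : ‖‖a + b‖⁻¹ • (a + b) - a‖ ^ 2 = 2 - ‖a + b‖ := by
    rw [norm_sub_sq_real, hm, ha, hma]; ring
  have db : ‖‖a + b‖⁻¹ • (a + b) - b‖ ^ 2 = 2 - ‖a + b‖ := by
    rw [norm_sub_sq_real, hm, hb, hmb]; ring
  have dab : ‖a - b‖ ^ 2 = 4 - ‖a + b‖ ^ 2 := by
    rw [norm_sub_sq_real, ha, hb, hr2]; ring
  obtain ⟨z, hz⟩ : ∃ z : H, z = ‖a + b‖⁻¹ • (a + b) := ⟨_, rfl⟩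
  rw [← hz] at hm da db ⊢
  have hp : ‖φ z - φ a‖ = ‖z - a‖ := hφ.2.1 z a hm ha
  have hq : ‖φ z - φ b‖ = ‖z - b‖ := hφ.2.1 z b hm hb
  have hpq : ‖z - b‖ = ‖z - a‖ := by
    apply eq_of_sq_eq (norm_nonneg _) (norm_nonneg _); rw [da, db]
  have hR := rhombus hφ hp (hq.trans hpq)
  have hsub : (φ z - φ a) - (φ z - φ b) = φ b - φ a := by abel
  rw [hsub, hφ.2.1 b a hb ha, norm_sub_rev b a, dab, da] at hR
  have hpq2 : ‖(φ z - φ a) + (φ z - φ b)‖ = 2 - ‖a + b‖ := by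
    apply eq_of_sq_eq (norm_nonneg _) (by linarith)
    linear_combination hR
  have hT : (1 / 2 : ℝ) • (φ a + φ b) + (1 / 2 : ℝ) • ((φ z - φ a) + (φ z - φ b)) = φ z := by
    module
  have n1 : ‖(1 / 2 : ℝ) • (φ a + φ b)‖ = ‖a + b‖ / 2 := by
    rw [norm_smul, phi_add_norm hφ ha hb, Real.norm_of_nonneg (by norm_num)]; ring
  have n2 : ‖(1 / 2 : ℝ) • ((φ z - φ a) + (φ z - φ b))‖ = (2 - ‖a + b‖) / 2 := by
    rw [norm_smul, hpq2, Real.norm_of_nonneg (by norm_num)]; ring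
  have h := ray_split hT (hφ.1 z hm) (by rw [n1, n2]; ring)
  rw [n1] at h
  calc φ a + φ b = (2 : ℝ) • ((1 / 2 : ℝ) • (φ a + φ b)) := by rw [smul_smul]; norm_num
    _ = (2 : ℝ) • ((‖a + b‖ / 2) • φ z) := by rw [h]
    _ = ‖a + b‖ • φ z := by rw [smul_smul]; congr 1; ring

/-- The positively homogeneous extension of a map given on the unit sphere. -/
noncomputable def ext (φ : H → Y) (x : H) : Y := ‖x‖ • φ (‖x‖⁻¹ • x)

theorem ext_unit (φ : H → Y) {a : H} (ha : ‖a‖ = 1) : ext φ a = φ a := by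
  unfold ext; rw [ha, inv_one, one_smul, one_smul]

theorem ext_zero (φ : H → Y) : ext φ 0 = 0 := by
  unfold ext; rw [norm_zero, zero_smul]

theorem ext_smul (φ : H → Y) {t : ℝ} (ht : 0 ≤ t) (x : H) : ext φ (t • x) = t • ext φ x := by
  rcases ht.eq_or_lt with h | h
  · subst h; rw [zero_smul, zero_smul, ext_zero]
  by_cases hx : x = 0
  · subst hx; rw [smul_zero, ext_zero, smul_zero]
  have hxn : ‖x‖ ≠ 0 := norm_ne_zero_iff.2 hx
  have ht0 : t ≠ 0 := h.ne'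
  have e : ‖t • x‖ = t * ‖x‖ := by rw [norm_smul, Real.norm_eq_abs, abs_of_pos h]
  have e2 : ‖t • x‖⁻¹ • (t • x) = ‖x‖⁻¹ • x := by
    rw [e, smul_smul]; congr 1; field_simp
  unfold ext
  rw [e2, e, mul_smul]

theorem ext_norm {φ : H → Y} (hφ : SphIso φ) (x : H) : ‖ext φ x‖ = ‖x‖ := by
  by_cases hx : x = 0
  · subst hx; rw [ext_zero, norm_zero, norm_zero]
  unfold ext
  rw [norm_smul, norm_norm, hφ.1 _ (unit_normalize hx), mul_one]

theorem ext_neg {φ : H → Y} (hφ : SphIso φ) (x : H) : ext φ (-x) = -ext φ x := by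
  by_cases hx : x = 0
  · subst hx; rw [neg_zero, ext_zero, neg_zero]
  unfold ext
  rw [norm_neg, smul_neg, phi_neg hφ (unit_normalize hx), smul_neg]

theorem ext_smul_real {φ : H → Y} (hφ : SphIso φ) (t : ℝ) (x : H) :
    ext φ (t • x) = t • ext φ x := by
  rcases le_or_gt 0 t with ht | ht
  · exact ext_smul φ ht x
  · have h1 : t • x = -((-t) • x) := by rw [neg_smul, neg_neg]
    rw [h1, ext_neg hφ, ext_smul φ (by linarith : 0 ≤ -t), neg_smul, neg_neg]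

/-- Additivity of the extension on pairs of equal norm. -/
theorem ext_add_of_norm_eq {φ : H → Y} (hφ : SphIso φ) {x y : H} (hxy : ‖x‖ = ‖y‖) :
    ext φ x + ext φ y = ext φ (x + y) := by
  by_cases hx : x = 0
  · have hy : y = 0 := by rw [← norm_eq_zero, ← hxy, hx, norm_zero]
    subst hx; subst hy; simp [ext_zero]
  have hxn : 0 < ‖x‖ := norm_pos_iff.2 hx
  have hy : y ≠ 0 := by rw [← norm_pos_iff, ← hxy]; exact hxn
  have ha : ‖‖x‖⁻¹ • x‖ = 1 := unit_normalize hx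
  have hb : ‖‖x‖⁻¹ • y‖ = 1 := by rw [hxy]; exact unit_normalize hy
  have hx' : ‖x‖ • (‖x‖⁻¹ • x) = x := by rw [smul_smul, mul_inv_cancel₀ hxn.ne', one_smul]
  have hy' : ‖x‖ • (‖x‖⁻¹ • y) = y := by rw [smul_smul, mul_inv_cancel₀ hxn.ne', one_smul]
  have hsum : ‖x‖ • (‖x‖⁻¹ • x + ‖x‖⁻¹ • y) = x + y := by rw [smul_add, hx', hy']
  have hA : ext φ (‖x‖⁻¹ • x + ‖x‖⁻¹ • y) = φ (‖x‖⁻¹ • x) + φ (‖x‖⁻¹ • y) := by
    by_cases h0 : ‖x‖⁻¹ • x + ‖x‖⁻¹ • y = 0
    · rw [h0, ext_zero]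
      have h1 : ‖x‖⁻¹ • y = -(‖x‖⁻¹ • x) := eq_neg_of_add_eq_zero_right h0
      rw [h1, phi_neg hφ ha, add_neg_cancel]
    · rw [lemD hφ ha hb h0]; rfl
  have hX : ext φ x = ‖x‖ • φ (‖x‖⁻¹ • x) := rfl
  have hY : ext φ y = ‖x‖ • φ (‖x‖⁻¹ • y) := by
    have h1 := ext_smul φ hxn.le (‖x‖⁻¹ • y)
    rw [hy', ext_unit φ hb] at h1
    exact h1
  rw [← hsum, ext_smul φ hxn.le, hA, smul_add, hX, hY]

/-- Additivity of the extension on orthogonal pairs. -/
theorem ext_add_orth {φ : H → Y} (hφ : SphIso φ) {s d : H} (h : ⟪s, d⟫_ℝ = 0) :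
    ext φ (s + d) = ext φ s + ext φ d := by
  have hds : ⟪d, s⟫_ℝ = 0 := by rw [real_inner_comm]; exact h
  obtain ⟨p, hp⟩ : ∃ p : H, p = (1 / 2 : ℝ) • (s + d) := ⟨_, rfl⟩
  obtain ⟨q, hq⟩ : ∃ q : H, q = (1 / 2 : ℝ) • (s - d) := ⟨_, rfl⟩
  have npq : ‖p‖ = ‖q‖ := by
    apply norm_eq_of_inner
    rw [hp, hq]
    simp only [inner_add_left, inner_add_right, inner_sub_left, inner_sub_right,
      real_inner_smul_left, real_inner_smul_right, h, hds]
    ring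
  have npq' : ‖p‖ = ‖-q‖ := by rw [norm_neg]; exact npq
  have A1 := ext_add_of_norm_eq hφ npq
  have A2 := ext_add_of_norm_eq hφ npq'
  have A3 := ext_add_of_norm_eq hφ (rfl : ‖p‖ = ‖p‖)
  have s1 : p + q = s := by rw [hp, hq]; module
  have s2 : p + -q = d := by rw [hp, hq]; module
  have s3 : p + p = s + d := by rw [hp]; module
  rw [s1] at A1
  rw [s2, ext_neg hφ] at A2
  rw [s3] at A3
  rw [← A3, ← A1, ← A2]; abel

theorem ext_add {φ : H → Y} (hφ : SphIso φ) (a b : H) :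
    ext φ (a + b) = ext φ a + ext φ b := by
  by_cases ha : a = 0
  · subst ha; rw [zero_add, ext_zero, zero_add]
  have haa : ⟪a, a⟫_ℝ ≠ 0 := by
    rw [real_inner_self_eq_norm_sq]; exact pow_ne_zero 2 (norm_ne_zero_iff.2 ha)
  obtain ⟨t, ht⟩ : ∃ t : ℝ, t = ⟪a, b⟫_ℝ / ⟪a, a⟫_ℝ := ⟨_, rfl⟩
  obtain ⟨b', hb'⟩ : ∃ b' : H, b' = b - t • a := ⟨_, rfl⟩
  have horth : ⟪a, b'⟫_ℝ = 0 := by
    rw [hb', inner_sub_right, real_inner_smul_right, ht, div_mul_cancel₀ _ haa, sub_self]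
  have e1 : a + b = (1 + t) • a + b' := by rw [hb']; module
  have e2 : b = t • a + b' := by rw [hb']; module
  have o1 : ⟪(1 + t) • a, b'⟫_ℝ = 0 := by rw [real_inner_smul_left, horth, mul_zero]
  have o2 : ⟪t • a, b'⟫_ℝ = 0 := by rw [real_inner_smul_left, horth, mul_zero]
  have B1 := ext_add_orth hφ o1
  have B2 := ext_add_orth hφ o2
  rw [ext_smul_real hφ] at B1 B2
  rw [e1, B1]
  conv_rhs => rw [e2, B2]
  rw [add_smul, one_smul]; abel

theorem main {φ : H → Y} (hφ : SphIso φ) :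
    ∃ T : H ≃ₗᵢ[ℝ] Y, ∀ a : H, ‖a‖ = 1 → T a = φ a := by
  let L : H →ₗ[ℝ] Y :=
    { toFun := ext φ
      map_add' := ext_add hφ
      map_smul' := fun t x => by simpa using ext_smul_real hφ t x }
  let LI : H →ₗᵢ[ℝ] Y := { L with norm_map' := ext_norm hφ }
  have hLI : ∀ x : H, LI x = ext φ x := fun x => rfl
  have hsurj : Function.Surjective LI := by
    intro y
    by_cases hy : y = 0
    · exact ⟨0, by rw [hy, hLI, ext_zero]⟩
    · have hyn : ‖y‖ ≠ 0 := norm_ne_zero_iff.2 hy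
      obtain ⟨a, ha, hay⟩ := hφ.2.2 (‖y‖⁻¹ • y) (unit_normalize hy)
      refine ⟨‖y‖ • a, ?_⟩
      rw [hLI, ext_smul φ (norm_nonneg y), ext_unit φ ha, hay, smul_smul, mul_inv_cancel₀ hyn,
        one_smul]
  refine ⟨LinearIsometryEquiv.ofSurjective LI hsurj, fun a ha => ?_⟩
  rw [LinearIsometryEquiv.coe_ofSurjective, hLI, ext_unit φ ha]

end Core

/-- Sphere form: a surjective isometry from the unit sphere of a real inner product space onto
the unit sphere of a real normed space extends to a linear isometry. -/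
theorem sphere_version {H Y : Type*} [NormedAddCommGroup H] [InnerProductSpace ℝ H]
    [NormedAddCommGroup Y] [NormedSpace ℝ Y]
    (f : Metric.sphere (0 : H) 1 → Metric.sphere (0 : Y) 1)
    (hf : Isometry f) (hsurj : Function.Surjective f) :
    ∃ T : H ≃ₗᵢ[ℝ] Y, ∀ x : Metric.sphere (0 : H) 1, T (x : H) = (f x : Y) := by
  classical
  let φ : H → Y := fun a => if h : ‖a‖ = 1 then (f ⟨a, by simpa using h⟩ : Y) else 0
  have hφa : ∀ (a : H) (h : ‖a‖ = 1), φ a = (f ⟨a, by simpa using h⟩ : Y) := by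
    intro a h; simp only [φ, dif_pos h]
  have hφ : SphIso φ := by
    refine ⟨?_, ?_, ?_⟩
    · intro a ha
      rw [hφa a ha]
      have h := (f ⟨a, by simpa using ha⟩).2
      simpa using h
    · intro a b ha hb
      rw [hφa a ha, hφa b hb]
      have h := hf.dist_eq ⟨a, by simpa using ha⟩ ⟨b, by simpa using hb⟩
      rw [Subtype.dist_eq, Subtype.dist_eq, dist_eq_norm, dist_eq_norm] at h
      exact h
    · intro y hy
      obtain ⟨x, hx⟩ := hsurj ⟨y, by simpa using hy⟩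
      have hx1 : ‖(x : H)‖ = 1 := by simpa using x.2
      refine ⟨x, hx1, ?_⟩
      rw [hφa _ hx1]
      have h : (⟨(x : H), by simpa using hx1⟩ : Metric.sphere (0 : H) 1) = x := Subtype.ext rfl
      rw [h, hx]
  obtain ⟨T, hT⟩ := main hφ
  refine ⟨T, fun x => ?_⟩
  have hx1 : ‖(x : H)‖ = 1 := by simpa using x.2
  rw [hT _ hx1, hφa _ hx1]

/-- **Tingley's problem when one of the two spaces is an inner product space.**  Let `H` be a
real inner product space (of any dimension, complete or not) and `Y` any real normed space.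
Then (1) every surjective isometry of the unit sphere of `H` onto the unit sphere of `Y` is the
restriction of a linear isometry of `H` onto `Y` (so `H` has the Mazur-Ulam property), and
(2) every surjective isometry of the unit sphere of `Y` onto the unit sphere of `H` is the
restriction of a linear isometry of `Y` onto `H`. -/
theorem result {H Y : Type*} [NormedAddCommGroup H] [InnerProductSpace ℝ H]
    [NormedAddCommGroup Y] [NormedSpace ℝ Y] :
    (∀ f : Metric.sphere (0 : H) 1 → Metric.sphere (0 : Y) 1,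
      Isometry f → Function.Surjective f →
        ∃ T : H ≃ₗᵢ[ℝ] Y, ∀ x : Metric.sphere (0 : H) 1, T (x : H) = (f x : Y)) ∧
    (∀ g : Metric.sphere (0 : Y) 1 → Metric.sphere (0 : H) 1,
      Isometry g → Function.Surjective g →
        ∃ T : Y ≃ₗᵢ[ℝ] H, ∀ y : Metric.sphere (0 : Y) 1, T (y : Y) = (g y : H)) := by
  refine ⟨fun f hf hsurj => sphere_version f hf hsurj, fun g hg hsurj => ?_⟩
  have hbij : Function.Bijective g := ⟨hg.injective, hsurj⟩
  obtain ⟨T, hT⟩ := sphere_version (Equiv.ofBijective g hbij).symm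
    (fun a b => by
      rw [← hg ((Equiv.ofBijective g hbij).symm a) ((Equiv.ofBijective g hbij).symm b),
        Equiv.ofBijective_apply_symm_apply g hbij a, Equiv.ofBijective_apply_symm_apply g hbij b])
    (Equiv.ofBijective g hbij).symm.surjective
  refine ⟨T.symm, fun y => ?_⟩
  have h1 := hT (g y)
  rw [Equiv.ofBijective_symm_apply_apply] at h1
  rw [← h1, LinearIsometryEquiv.symm_apply_apply]

end Vale.Agent.Results.P084.A_HilbertMazurUlam
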