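import Mathlib

namespace Vale.Agent.Results.P084.A_InnerProductSpaces

section
variable {X Y : Type*} [NormedAddCommGroup X] [InnerProductSpace ℝ X]
  [NormedAddCommGroup Y] [InnerProductSpace ℝ Y]

/-- a map preserving inner products is additive -/
theorem add_of_inner {G : X → Y} (hG : ∀ x y : X, inner ℝ (G x) (G y) = inner ℝ x y) (x y : X) :
    G (x + y) = G x + G y := by
  have h : inner ℝ (G (x + y) - G x - G y) (G (x + y) - G x - G y) = 0 := by
    simp only [inner_sub_left, inner_sub_right, hG, inner_add_left, inner_add_right]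
    rw [real_inner_comm y x]
    ring
  have h2 := inner_self_eq_zero.mp h
  have h3 : G (x + y) = G x + G y := by
    have := sub_eq_zero.mp h2
    rw [sub_eq_iff_eq_add] at this
    rw [this, add_comm]
  exact h3

/-- a map preserving inner products is homogeneous -/
theorem smul_of_inner {G : X → Y} (hG : ∀ x y : X, inner ℝ (G x) (G y) = inner ℝ x y) (c : ℝ)
    (x : X) : G (c • x) = c • G x := by
  have h : inner ℝ (G (c • x) - c • G x) (G (c • x) - c • G x) = 0 := by
    simp only [inner_sub_left, inner_sub_right, inner_smul_left, inner_smul_right, hG]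
    simp
  exact sub_eq_zero.mp (inner_self_eq_zero.mp h)

/-- normalising a nonzero vector gives a unit vector -/
theorem unit_norm {E : Type*} [NormedAddCommGroup E] [NormedSpace ℝ E] (x : E) (hx : x ≠ 0) :
    ‖(‖x‖⁻¹ • x)‖ = 1 := by
  rw [norm_smul, norm_inv, norm_norm, inv_mul_cancel₀ (norm_ne_zero_iff.mpr hx)]

end

/-- Tingley's problem for inner product spaces. If `X` and `Y` are real inner product spaces
(complete or not), then every surjective isometry `f` from the unit sphere of `X` onto the unit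
sphere of `Y` is the restriction of a surjective real-linear isometry `T` of `X` onto `Y`. -/
theorem result {X Y : Type*} [NormedAddCommGroup X] [InnerProductSpace ℝ X]
    [NormedAddCommGroup Y] [InnerProductSpace ℝ Y]
    (f : Metric.sphere (0 : X) 1 → Metric.sphere (0 : Y) 1)
    (hsurj : Function.Surjective f)
    (hiso : ∀ x y : Metric.sphere (0 : X) 1, ‖(f x : Y) - (f y : Y)‖ = ‖(x : X) - (y : X)‖) :
    ∃ T : X ≃ₗᵢ[ℝ] Y, ∀ x : Metric.sphere (0 : X) 1, T (x : X) = (f x : Y) := by
  classical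
  have hnX : ∀ u : Metric.sphere (0 : X) 1, ‖(u : X)‖ = 1 := fun u =>
    mem_sphere_zero_iff_norm.mp u.2
  have hnY : ∀ v : Metric.sphere (0 : Y) 1, ‖(v : Y)‖ = 1 := fun v =>
    mem_sphere_zero_iff_norm.mp v.2
  -- inner products of unit vectors are preserved
  have hin : ∀ u v : Metric.sphere (0 : X) 1, inner ℝ (f u : Y) (f v : Y) = inner ℝ (u : X) (v : X) := by
    intro u v
    have h1 := norm_sub_sq_real (f u : Y) (f v : Y)
    have h2 := norm_sub_sq_real (u : X) (v : X)
    rw [hiso u v, hnY, hnY] at h1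
    rw [hnX, hnX] at h2
    linarith
  -- normalisation
  have hunit : ∀ x : X, x ≠ 0 → ‖(‖x‖⁻¹ • x)‖ = 1 := fun x hx => unit_norm x hx
  let F : X → Y := fun x =>
    if h : x = 0 then 0 else ‖x‖ • (f ⟨‖x‖⁻¹ • x, mem_sphere_zero_iff_norm.mpr (hunit x h)⟩ : Y)
  have hF0 : F 0 = 0 := by simp [F]
  have hFne : ∀ x : X, ∀ h : x ≠ 0,
      F x = ‖x‖ • (f ⟨‖x‖⁻¹ • x, mem_sphere_zero_iff_norm.mpr (hunit x h)⟩ : Y) := by
    intro x h
    simp only [F]
    rw [dif_neg h]
  have hF : ∀ x y : X, inner ℝ (F x) (F y) = inner ℝ x y := by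
    intro x y
    by_cases hx : x = 0
    · subst hx; rw [hF0]; simp
    by_cases hy : y = 0
    · subst hy; rw [hF0]; simp
    rw [hFne x hx, hFne y hy, inner_smul_left, inner_smul_right, hin]
    simp only [inner_smul_left, inner_smul_right]
    have hx' : ‖x‖ ≠ 0 := norm_ne_zero_iff.mpr hx
    have hy' : ‖y‖ ≠ 0 := norm_ne_zero_iff.mpr hy
    simp
    field_simp
  have hnorm : ∀ x : X, ‖F x‖ = ‖x‖ := by
    intro x
    have h := hF x x
    rw [real_inner_self_eq_norm_sq, real_inner_self_eq_norm_sq] at h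
    have h1 : ‖F x‖ = |‖x‖| := by
      rw [← abs_of_nonneg (norm_nonneg (F x))]
      exact (sq_eq_sq_iff_abs_eq_abs _ _).mp h
    rwa [abs_of_nonneg (norm_nonneg x)] at h1
  let L : X →ₗ[ℝ] Y :=
    { toFun := F
      map_add' := add_of_inner hF
      map_smul' := fun c x => by simpa using smul_of_inner hF c x }
  let LI : X →ₗᵢ[ℝ] Y := { L with norm_map' := hnorm }
  have hLIsurj : Function.Surjective LI := by
    intro y
    by_cases hy : y = 0
    · exact ⟨0, by subst hy; exact hF0⟩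
    have hy' : ‖y‖ ≠ 0 := norm_ne_zero_iff.mpr hy
    obtain ⟨u, hu⟩ := hsurj ⟨‖y‖⁻¹ • y, mem_sphere_zero_iff_norm.mpr (unit_norm y hy)⟩
    refine ⟨‖y‖ • (u : X), ?_⟩
    have hne : ‖y‖ • (u : X) ≠ 0 := by
      intro h0
      have := congrArg norm h0
      rw [norm_smul, norm_norm, hnX, mul_one, norm_zero] at this
      exact hy' this
    have hnu : ‖‖y‖ • (u : X)‖ = ‖y‖ := by rw [norm_smul, norm_norm, hnX, mul_one]
    show F (‖y‖ • (u : X)) = y
    rw [hFne _ hne]
    have hsub : (⟨‖‖y‖ • (u : X)‖⁻¹ • (‖y‖ • (u : X)),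
        mem_sphere_zero_iff_norm.mpr (hunit _ hne)⟩ : Metric.sphere (0 : X) 1) = u := by
      apply Subtype.ext
      show ‖‖y‖ • (u : X)‖⁻¹ • (‖y‖ • (u : X)) = (u : X)
      rw [hnu, smul_smul, inv_mul_cancel₀ hy', one_smul]
    rw [hsub, hu, hnu]
    show ‖y‖ • (‖y‖⁻¹ • y) = y
    rw [smul_smul, mul_inv_cancel₀ hy', one_smul]
  refine ⟨LinearIsometryEquiv.ofSurjective LI hLIsurj, ?_⟩
  intro x
  show F (x : X) = (f x : Y)
  have hx1 := hnX x
  have hxne : (x : X) ≠ 0 := by
    intro h0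
    rw [h0, norm_zero] at hx1
    exact zero_ne_one hx1
  rw [hFne _ hxne]
  have hsub : (⟨‖(x : X)‖⁻¹ • (x : X),
      mem_sphere_zero_iff_norm.mpr (hunit _ hxne)⟩ : Metric.sphere (0 : X) 1) = x := by
    apply Subtype.ext
    show ‖(x : X)‖⁻¹ • (x : X) = (x : X)
    rw [hx1, inv_one, one_smul]
  rw [hsub, hx1, one_smul]

end Vale.Agent.Results.P084.A_InnerProductSpaces
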