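import Mathlib

namespace Vale.Agent.Results.P084.B_StrictlyConvexAntipodal

section Core

variable {X Y : Type*} [NormedAddCommGroup X] [NormedSpace ℝ X]
  [NormedAddCommGroup Y] [NormedSpace ℝ Y]

/-- In a strictly convex space two unit vectors whose sum has norm two are equal. -/
theorem eq_of_norm_add_eq_two [StrictConvexSpace ℝ X] {a b : X} (ha : ‖a‖ = 1) (hb : ‖b‖ = 1)
    (h : ‖a + b‖ = 2) : a = b := by
  have hsr : SameRay ℝ a b := sameRay_iff_norm_add.2 (by rw [h, ha, hb]; norm_num)
  exact (sameRay_iff_of_norm_eq (ha.trans hb.symm)).1 hsr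

/-- One half of the statement: the domain is strictly convex. -/
theorem half [StrictConvexSpace ℝ X]
    (f : Metric.sphere (0 : X) 1 → Metric.sphere (0 : Y) 1)
    (hf : Isometry f) (hsurj : Function.Surjective f) :
    StrictConvexSpace ℝ Y ∧
    (∀ x : Metric.sphere (0 : X) 1, f (-x) = -f x) ∧
    (∀ x y : Metric.sphere (0 : X) 1, ‖(f x : Y) + (f y : Y)‖ = ‖(x : X) + (y : X)‖) := by
  have hn : ∀ x : Metric.sphere (0 : X) 1, ‖(x : X)‖ = 1 := fun x => by simpa using x.2
  have hnY : ∀ y : Metric.sphere (0 : Y) 1, ‖(y : Y)‖ = 1 := fun y => by simpa using y.2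
  have hd : ∀ x y : Metric.sphere (0 : X) 1, ‖(f x : Y) - (f y : Y)‖ = ‖(x : X) - (y : X)‖ := by
    intro x y
    have h := hf.dist_eq x y
    rw [Subtype.dist_eq, Subtype.dist_eq, dist_eq_norm, dist_eq_norm] at h
    exact h
  have hodd : ∀ x : Metric.sphere (0 : X) 1, f (-x) = -f x := by
    intro x
    obtain ⟨z, hz⟩ := hsurj (-f x)
    have h2 : ‖(x : X) - (z : X)‖ = 2 := by
      rw [← hd x z, hz]
      have h3 : ((-f x : Metric.sphere (0 : Y) 1) : Y) = -(f x : Y) := rfl
      rw [h3, sub_neg_eq_add, ← two_smul ℝ (f x : Y), norm_smul, hnY]; norm_num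
    have h4 : (x : X) = -(z : X) := by
      apply eq_of_norm_add_eq_two (hn x) (by rw [norm_neg]; exact hn z)
      rw [← sub_eq_add_neg]; exact h2
    have h5 : z = -x := by
      apply Subtype.ext
      have h6 : ((-x : Metric.sphere (0 : X) 1) : X) = -(x : X) := rfl
      rw [h6, h4, neg_neg]
    rw [← h5, hz]
  have hsum : ∀ x y : Metric.sphere (0 : X) 1,
      ‖(f x : Y) + (f y : Y)‖ = ‖(x : X) + (y : X)‖ := by
    intro x y
    have h := hd x (-y)
    rw [hodd y] at h
    have h1 : ((-f y : Metric.sphere (0 : Y) 1) : Y) = -(f y : Y) := rfl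
    have h2 : ((-y : Metric.sphere (0 : X) 1) : X) = -(y : X) := rfl
    rw [h1, h2, sub_neg_eq_add, sub_neg_eq_add] at h
    exact h
  refine ⟨?_, hodd, hsum⟩
  apply StrictConvexSpace.of_norm_add
  intro u v hu hv huv
  obtain ⟨a, ha⟩ := hsurj ⟨u, by simpa using hu⟩
  obtain ⟨b, hb⟩ := hsurj ⟨v, by simpa using hv⟩
  have h1 : ‖(a : X) + (b : X)‖ = 2 := by
    rw [← hsum a b, ha, hb]; exact huv
  have h2 : (a : X) = (b : X) := eq_of_norm_add_eq_two (hn a) (hn b) h1
  have h3 : a = b := Subtype.ext h2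
  have h4 : u = v := by
    have h5 : f a = f b := by rw [h3]
    rw [ha, hb] at h5
    exact congrArg Subtype.val h5
  rw [h4]

end Core

/-- **Antipodal points and strict convexity.**  Let `X`, `Y` be real normed spaces of which at
least one is strictly convex, and let `f` be a surjective isometry of the unit sphere of `X`
onto the unit sphere of `Y`.  Then both spaces are strictly convex, `f (-x) = -f x` for every
unit vector `x`, and `‖f x + f y‖ = ‖x + y‖` for all unit vectors `x`, `y`. -/
theorem result {X Y : Type*} [NormedAddCommGroup X] [NormedSpace ℝ X]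
    [NormedAddCommGroup Y] [NormedSpace ℝ Y]
    (h : StrictConvexSpace ℝ X ∨ StrictConvexSpace ℝ Y)
    (f : Metric.sphere (0 : X) 1 → Metric.sphere (0 : Y) 1)
    (hf : Isometry f) (hsurj : Function.Surjective f) :
    (StrictConvexSpace ℝ X ∧ StrictConvexSpace ℝ Y) ∧
    (∀ x : Metric.sphere (0 : X) 1, f (-x) = -f x) ∧
    (∀ x y : Metric.sphere (0 : X) 1, ‖(f x : Y) + (f y : Y)‖ = ‖(x : X) + (y : X)‖) := by
  have hX : StrictConvexSpace ℝ X := by
    rcases h with h | h
    · exact h
    · have hbij : Function.Bijective f := ⟨hf.injective, hsurj⟩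
      exact (half (Equiv.ofBijective f hbij).symm
        (fun a b => by
          rw [← hf ((Equiv.ofBijective f hbij).symm a) ((Equiv.ofBijective f hbij).symm b),
            Equiv.ofBijective_apply_symm_apply f hbij a,
            Equiv.ofBijective_apply_symm_apply f hbij b])
        (Equiv.ofBijective f hbij).symm.surjective).1
  obtain ⟨hY, h1, h2⟩ := half f hf hsurj
  exact ⟨⟨hX, hY⟩, h1, h2⟩

end Vale.Agent.Results.P084.B_StrictlyConvexAntipodal
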